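import Vale.Agent.P032.Words6.H790.Engine

/-!
# P032: a colour in no letter: the finite facts needed by the composition (definitions)
-/

open Set

noncomputable section

namespace Vale.Agent.P032.Words6.H790

/-- the class of the set of positions of `i` -/
def cls (i : Fin 6) (h : Fin 6 → Set (Fin 6)) : ℕ :=
  open Classical in
  if ∀ k : Fin 6, i ∈ h k → k.val % 2 = 0 then 0
  else if ∀ k : Fin 6, i ∈ h k → k.val % 2 = 1 then 1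
  else if i ∈ h 0 then 2 else if i ∈ h 1 then 3 else 4

/-- a blocked line -/
def BL (x i : Fin 6) (t h g : Fin 6 → Set (Fin 6)) (k : Fin 6) : Prop :=
  ∃ r s c d : Fin 6, (∀ j, j = x ∨ j = i ∨ j = r ∨ j = s ∨ j = c ∨ j = d) ∧
    t k ⊆ {r, i, d} ∧ t (k + 3) ⊆ {s, i, c} ∧ h k = {r, d} ∧ h (k + 3) = {s, i} ∧
    g k = {r, i} ∧ g (k + 3) = {s, c} ∧ (∃ j, h j = {c, d} ∨ g j = {c, d}) ∧
    ∀ w, Lg x i t w → r ∈ w k ∧ s ∈ w (k + 3)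

/-- the six-fold boxes with two labels -/
def F2 (x i : Fin 6) (cl : (Fin 6 → Set (Fin 6)) → ℕ) : Prop :=
  ∀ t h g : Fin 6 → Set (Fin 6), Bx x t → (∀ k, (t k).ncard = 3) → Lg x i t h → Lg x i t g →
    cl h ≠ cl g →
    (∃ A B : Set (Fin 6), A.ncard = 3 ∧ B.ncard = 3 ∧ x ∉ A ∧ x ∉ B ∧ A ∩ B = {i} ∧
      ∀ k : Fin 6, t k = if k.val % 2 = 0 then A else B) ∨
    (∃ A B : Set (Fin 6), A.Nonempty ∧ B.Nonempty ∧ A.ncard ≤ 2 ∧ Disjoint A B ∧ x ∉ A ∧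
      x ∉ B ∧ (∀ j, j = x ∨ j ∈ A ∨ j ∈ B) ∧
      ∀ a ∈ A, ∀ b ∈ B, ∃ k, h k = {a, b} ∨ g k = {a, b}) ∨
    ∃ k k' : Fin 6, k' ≠ k ∧ k' ≠ k + 3 ∧ (BL x i t h g k ∨ BL x i t g h k) ∧
      (BL x i t h g k' ∨ BL x i t g h k')

/-- the three finite facts -/
def FinF : Prop := ∀ x i : Fin 6, i ≠ x →
  F1 x i (cls i) ∧ Rt x i (cls i) ∧ F2 x i (cls i)

end Vale.Agent.P032.Words6.H790
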