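import Vale.Agent.P032.Words6.H704.Box6
import Vale.Agent.P032.Words6.H46.Rules

/-!
# P032: a six-coloured centre with a colour in no letter: the label engine

`x` is in no broken pair of the circle, `i` is a colour such that two antipodal exact palettes never
fill all colours other than `x`, `i`.  `PP T z x u k` is the palette at the time `u + k` without
`x`.  For every label `cl` which is constant on the legal selections of each box with a two-coloured
position and changes under the rotation there is a time at which all six palettes are triples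
without `x` and two labels occur, each of them alone on one side of times with the same palettes.
-/

open Set Filter Topology Metric

noncomputable section

namespace Vale.Agent.P032.Words6.H790

open Vale.Agent.P032.Six Vale.Agent.P032.S5.H767 Vale.Agent.P032.Words6.H704

variable {U : Fin 6 → Set ℂ} {T : ℂ → Set (Fin 6)} {z : ℂ} {x i : Fin 6}
  {cl : (Fin 6 → Set (Fin 6)) → ℕ}

/-- `x` is in no letter, rule (N) for `i` -/
structure Sl (U : Fin 6 → Set ℂ) (T : ℂ → Set (Fin 6)) (z : ℂ) (x i : Fin 6) : Prop where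
  six : Six6 U T z
  mute : ∀ a b, MC T z a b → a ≠ x ∧ b ≠ x
  no : ∀ (v : ℝ) (P Q : Set (Fin 6)), (∀ᶠ v' in 𝓝 v, P ⊆ T (pt z v')) →
    (∀ᶠ v' in 𝓝 (v + 3), Q ⊆ T (pt z v')) → ¬ ∀ c, c = x ∨ c = i ∨ c ∈ P ∨ c ∈ Q

/-- the palette without `x` -/
def PP (T : ℂ → Set (Fin 6)) (z : ℂ) (x : Fin 6) (u : ℝ) (k : Fin 6) : Set (Fin 6) :=
  T (pt z (u + (k.val : ℝ))) \ {x}

/-- a box -/
def Bx (x : Fin 6) (t : Fin 6 → Set (Fin 6)) : Prop :=
  ∀ k, x ∉ t k ∧ ((t k).ncard = 2 ∨ (t k).ncard = 3) ∧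
    ((t k).ncard = 2 ∨ (t (k + 1)).ncard = 2 → Disjoint (t k) (t (k + 1))) ∧
    (t k ∩ t (k + 1)).ncard ≤ 1

/-- a legal selection of the box `t` -/
def Lg (x i : Fin 6) (t h : Fin 6 → Set (Fin 6)) : Prop :=
  ∀ k, (h k).ncard = 2 ∧ h k ⊆ t k ∧ Disjoint (h k) (h (k + 1)) ∧
    ∃ j, j ≠ x ∧ j ≠ i ∧ j ∉ h k ∧ j ∉ h (k + 3)

/-- the label is constant on boxes with a pair -/
def F1 (x i : Fin 6) (cl : (Fin 6 → Set (Fin 6)) → ℕ) : Prop :=
  ∀ t h g, Bx x t → (∃ k, (t k).ncard = 2) → Lg x i t h → Lg x i t g → cl h = cl g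

/-- the label changes under the rotation -/
def Rt (x i : Fin 6) (cl : (Fin 6 → Set (Fin 6)) → ℕ) : Prop :=
  ∀ t h, Bx x t → Lg x i t h → cl (fun k => h (k + 1)) ≠ cl h

/-- the palette without `x` has two or three colours, and is exact if it has two -/
theorem Sl.card (C : Sl U T z x i) {q : ℂ} (hq : dist q z = 1) :
    (T q \ {x}).ncard = 2 ∨ ((T q \ {x}).ncard = 3 ∧ x ∉ T q ∧ T q \ {x} = T q) := by
  obtain ⟨a, b, hab, hsub⟩ := C.six.sub_pair hq
  obtain ⟨ha, hb⟩ := C.mute a b hab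
  have h1 : ({a, b} : Set (Fin 6)) ⊆ T q \ {x} := by
    rintro j (rfl | rfl)
    · exact ⟨hsub (Or.inl rfl), ha⟩
    · exact ⟨hsub (Or.inr rfl), hb⟩
  have h2 := Set.ncard_le_ncard h1 (Set.toFinite _)
  rw [Set.ncard_pair hab.1] at h2
  have h3 := C.six.clean q hq
  by_cases hx : x ∈ T q
  · have h4 := Set.ncard_sdiff_singleton_of_mem hx
    left; omega
  · have h4 : T q \ {x} = T q := Set.sdiff_singleton_eq_self hx
    rw [h4] at h2 ⊢
    have : (T q).ncard = 2 ∨ (T q).ncard = 3 := by omega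
    rcases this with h5 | h5
    · exact Or.inl h5
    · exact Or.inr ⟨h5, hx, rfl⟩

/-- a two-coloured palette without `x` is exact -/
theorem Sl.exact (C : Sl U T z x i) {q : ℂ} (hq : dist q z = 1) (h2 : (T q \ {x}).ncard = 2) :
    ∀ᶠ p in 𝓝[sphere z 1] q, T q \ {x} ⊆ Pal U p := by
  filter_upwards [nhdsWithin_le_nhds (C.six.irr.nhd q), self_mem_nhdsWithin] with p hp hps
  have hp1 : dist p z = 1 := hps
  have h1 : T p \ {x} ⊆ T q \ {x} := fun j hj => ⟨hp hj.1, hj.2⟩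
  have h3 : 2 ≤ (T p \ {x}).ncard := by
    rcases C.card hp1 with h | h <;> omega
  have h4 := Set.eq_of_subset_of_ncard_le h1 (by omega) (Set.toFinite _)
  rw [← h4]
  exact fun j hj => C.six.irr.sub p hj.1

theorem Sl.disj2 (C : Sl U T z x i) {q w : ℂ} (hq : dist q z = 1) (hw : dist w z = 1)
    (hqw : dist q w = 1) (h2 : (T q \ {x}).ncard = 2) : Disjoint (T q \ {x}) (T w \ {x}) := by
  rw [Set.disjoint_left]
  intro j h1 h3
  have h4 : ∀ᶠ p in 𝓝[sphere z 1] q, j ∈ Pal U p := (C.exact hq h2).mono fun p hp => hp h1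
  rcases C.six.irr.mx.partner_line hq h4 hqw (C.six.irr.sub _ h3.1) with h5 | h5
  · rw [h5, dist_self] at hw
    exact zero_ne_one hw
  · have h6 : w - z = 2 * (q - z) := by linear_combination h5
    have h7 : dist w z = 2 := by
      rw [dist_eq_norm, h6, norm_mul, ← dist_eq_norm, hq]; simp
    rw [hw] at h7
    norm_num at h7

theorem Sl.bx (C : Sl U T z x i) (u : ℝ) : Bx x (PP T z x u) := by
  intro k
  have e : pt z (u + ((k + 1).val : ℝ)) = pt z (u + (k.val : ℝ) + 1) := pt_fin z u k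
  refine ⟨fun h => h.2 rfl, ?_, ?_, ?_⟩
  · rcases C.card (dist_pt z (u + (k.val : ℝ))) with h | h
    · exact Or.inl h
    · exact Or.inr h.1
  · unfold PP
    rw [e]
    rintro (h | h)
    · exact C.disj2 (dist_pt _ _) (dist_pt _ _) (dist_pt_one z _) h
    · exact (C.disj2 (dist_pt _ _) (dist_pt _ _) (by rw [dist_comm]; exact dist_pt_one z _)
        h).symm
  · unfold PP
    rw [e]
    refine (Set.ncard_le_ncard ?_ (Set.toFinite _)).trans (H46.nb_one C.six (u + (k.val : ℝ)))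
    exact fun j hj => ⟨hj.1.1, hj.2.1⟩

theorem Sl.lg (C : Sl U T z x i) {u v : ℝ} (hv : Gn T z v) {a : Fin 6 → Set (Fin 6)}
    (ha : Sel T z v a) (hs : ∀ k : Fin 6, T (pt z (v + (k.val : ℝ))) ⊆
      T (pt z (u + (k.val : ℝ)))) : Lg x i (PP T z x u) a := by
  have hleg := C.six.legM hv ha
  intro k
  refine ⟨pair_card (ha k).1, ?_, hleg.2 k, ?_⟩
  · obtain ⟨p, q, hpq, hak⟩ := (ha k).1
    obtain ⟨h1, h2⟩ := C.mute p q hpq
    intro j hj
    refine ⟨hs k ((ha k).2 hj), fun hjx => ?_⟩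
    rw [hak] at hj
    have hjx : j = x := hjx
    rcases hj with h | h
    · exact h1 (h.symm.trans hjx)
    · exact h2 ((Set.mem_singleton_iff.1 h).symm.trans hjx)
  · by_contra hcon
    push Not at hcon
    have hex : ∀ k : Fin 6, ∀ᶠ w in 𝓝 (v + (k.val : ℝ)), a k ⊆ T (pt z w) := by
      intro k
      exact (hv k).mono fun w hw => by rw [hw]; exact (ha k).2
    refine C.no (v + (k.val : ℝ)) (a k) (a (k + 3)) (hex k) ?_ ?_
    · have h3 := hex (k + 3)
      have hc : ∃ m : ℝ, (m = 0 ∨ m = 6) ∧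
          v + (k.val : ℝ) + 3 = v + ((k + 3).val : ℝ) + m := by
        fin_cases k
        · exact ⟨0, Or.inl rfl, by show v + ((0 : ℕ) : ℝ) + 3 = v + ((3 : ℕ) : ℝ) + 0; push_cast; ring⟩
        · exact ⟨0, Or.inl rfl, by show v + ((1 : ℕ) : ℝ) + 3 = v + ((4 : ℕ) : ℝ) + 0; push_cast; ring⟩
        · exact ⟨0, Or.inl rfl, by show v + ((2 : ℕ) : ℝ) + 3 = v + ((5 : ℕ) : ℝ) + 0; push_cast; ring⟩
        · exact ⟨6, Or.inr rfl, by show v + ((3 : ℕ) : ℝ) + 3 = v + ((0 : ℕ) : ℝ) + 6; push_cast; ring⟩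
        · exact ⟨6, Or.inr rfl, by show v + ((4 : ℕ) : ℝ) + 3 = v + ((1 : ℕ) : ℝ) + 6; push_cast; ring⟩
        · exact ⟨6, Or.inr rfl, by show v + ((5 : ℕ) : ℝ) + 3 = v + ((2 : ℕ) : ℝ) + 6; push_cast; ring⟩
      obtain ⟨m, hm, e⟩ := hc
      rw [e]
      have hcon2 : Tendsto (fun w : ℝ => w - m) (𝓝 (v + ((k + 3).val : ℝ) + m))
          (𝓝 (v + ((k + 3).val : ℝ))) := by
        have h5 : Continuous fun w : ℝ => w - m := by fun_prop
        have h6 := h5.tendsto (v + ((k + 3).val : ℝ) + m)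
        rwa [add_sub_cancel_right] at h6
      filter_upwards [hcon2.eventually h3] with w hw
      rcases hm with rfl | rfl
      · rwa [sub_zero] at hw
      · rw [← pt_six z (w - 6), sub_add_cancel] at hw
        exact hw
    · intro j
      by_cases h1 : j = x
      · exact Or.inl h1
      by_cases h2 : j = i
      · exact Or.inr (Or.inl h2)
      by_cases h3 : j ∈ a k
      · exact Or.inr (Or.inr (Or.inl h3))
      · exact Or.inr (Or.inr (Or.inr (hcon j h1 h2 h3)))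

/-- at a generic time some position is two-coloured -/
theorem Sl.gn_pair (C : Sl U T z x i) {u : ℝ} (hu : Gn T z u) :
    ∃ k, (PP T z x u k).ncard = 2 := by
  by_contra hcon
  push Not at hcon
  have h0 := (C.bx u 0).2.1.resolve_left (hcon 0)
  have h1 := (C.bx u 1).2.1.resolve_left (hcon 1)
  have h2 := C.six.disj (hu 0)
  rw [← pt_fin] at h2
  have h3 : Disjoint (PP T z x u 0) (PP T z x u 1) :=
    h2.mono Set.sdiff_subset Set.sdiff_subset
  have h4 := Set.ncard_union_eq h3 (Set.toFinite _) (Set.toFinite _)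
  have h5 : PP T z x u 0 ∪ PP T z x u 1 ⊆ ({x} : Set (Fin 6))ᶜ := by
    rintro j (hj | hj)
    · exact hj.2
    · exact hj.2
  have h6 := Set.ncard_le_ncard h5 (Set.toFinite _)
  rw [Set.ncard_compl _ (Set.toFinite _), Nat.card_eq_fintype_card, Fintype.card_fin,
    Set.ncard_singleton] at h6
  omega

/-- the label at a generic time does not depend on the selection -/
theorem Sl.val_eq (C : Sl U T z x i) (hF : F1 x i cl) {u : ℝ} (hu : Gn T z u)
    {a : Fin 6 → Set (Fin 6)} (ha : Sel T z u a) : val T z cl u = cl a := by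
  unfold val
  have h : ∃ a, Sel T z u a := ⟨a, ha⟩
  rw [dif_pos h]
  exact hF _ _ _ (C.bx u) (C.gn_pair hu) (C.lg hu h.choose_spec fun _ => subset_rfl)
    (C.lg hu ha fun _ => subset_rfl)

/-- near `u` the palettes are smaller -/
theorem Sl.near (C : Sl U T z x i) (u : ℝ) : ∀ᶠ v in 𝓝 u, ∀ k : Fin 6,
    T (pt z (v + (k.val : ℝ))) ⊆ T (pt z (u + (k.val : ℝ))) := by
  rw [eventually_all]
  intro k
  have hc : Continuous fun v : ℝ => pt z (v + (k.val : ℝ)) :=
    (continuous_pt z).comp (by fun_prop)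
  exact (hc.tendsto u).eventually (C.six.irr.nhd _)

/-- a break has six triples -/
theorem Sl.brk_three (C : Sl U T z x i) (hF : F1 x i cl) {u : ℝ} (hu : Brk T z cl u) (k : Fin 6) :
    (T (pt z (u + (k.val : ℝ)))).ncard = 3 ∧ x ∉ T (pt z (u + (k.val : ℝ))) ∧
      PP T z x u k = T (pt z (u + (k.val : ℝ))) := by
  have h2 : (PP T z x u k).ncard ≠ 2 := by
    intro h2
    by_cases hex : ∃ a : Fin 6 → Set (Fin 6), Lg x i (PP T z x u) a
    · obtain ⟨a, ha⟩ := hex
      refine hu (cl a) ?_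
      filter_upwards [C.near u] with v hv hg
      obtain ⟨b, hb⟩ := C.six.exists_sel v
      rw [C.val_eq hF hg hb]
      exact hF _ _ _ (C.bx u) ⟨k, h2⟩ (C.lg hg hb hv) ha
    · refine hu 0 ?_
      filter_upwards [C.near u] with v hv hg
      obtain ⟨b, hb⟩ := C.six.exists_sel v
      exact absurd ⟨b, C.lg hg hb hv⟩ hex
  rcases C.card (dist_pt z (u + (k.val : ℝ))) with h | ⟨h1, h3, h4⟩
  · exact absurd h h2
  · refine ⟨?_, h3, h4⟩
    rw [h4] at h1
    exact h1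

theorem Sl.not_brk (C : Sl U T z x i) (hF : F1 x i cl) {u : ℝ} (hu : Gn T z u) :
    ¬ Brk T z cl u := by
  intro h
  obtain ⟨k, hk⟩ := C.gn_pair hu
  obtain ⟨h1, -, h3⟩ := C.brk_three hF h k
  rw [h3] at hk
  omega

/-- the label changes under the rotation -/
theorem Sl.val_rot (C : Sl U T z x i) (hF : F1 x i cl) (hR : Rt x i cl) {u : ℝ}
    (hu : Gn T z u) : val T z cl (u + 1) ≠ val T z cl u := by
  obtain ⟨a, ha⟩ := C.six.exists_sel u
  have h1 : Sel T z (u + 1) (fun k => a (k + 1)) := by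
    intro k
    refine ⟨(ha (k + 1)).1, ?_⟩
    have h2 := (ha (k + 1)).2
    rw [pt_fin] at h2
    have e : u + 1 + (k.val : ℝ) = u + (k.val : ℝ) + 1 := by ring
    rw [e]
    exact h2
  rw [C.val_eq hF hu.shift h1, C.val_eq hF hu ha]
  exact hR _ a (C.bx u) (C.lg hu ha fun _ => subset_rfl)

/-- **A break.** -/
theorem Sl.exists_break (C : Sl U T z x i) (hF : F1 x i cl) (hR : Rt x i cl) :
    ∃ u : ℝ, Brk T z cl u := by
  by_contra hcon
  unfold Brk at hcon
  push Not at hcon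
  choose c hc using hcon
  have hloc : IsLocallyConstant c := by
    rw [IsLocallyConstant.iff_eventually_eq]
    intro u
    have h1 := eventually_eventually_nhds.2 (hc u)
    filter_upwards [h1] with v hv
    have h2 := hc v
    obtain ⟨w, ⟨hw1, hw2⟩, hw3⟩ := ((hv.and h2).and_frequently
      (mem_closure_iff_frequently.1 (C.six.gn_dense v))).exists
    rw [← hw2 hw3, hw1 hw3]
  obtain ⟨u, hu⟩ := C.six.gn_dense.nonempty
  have hu : Gn T z u := hu
  have h1 : val T z cl u = c u := (hc u).self_of_nhds hu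
  have h2 : val T z cl (u + 1) = c (u + 1) := (hc (u + 1)).self_of_nhds hu.shift
  have h3 : c (u + 1) = c u := hloc.apply_eq_of_preconnectedSpace _ _
  exact C.val_rot hF hR hu (by rw [h2, h3, h1])

/-- control of a value on one side -/
theorem Sl.control (C : Sl U T z x i) (hF : F1 x i cl) {u v : ℝ} (hu : Brk T z cl u)
    (hv : Gn T z v) : ∃ b, Brk T z cl b ∧ |b - u| ≤ |v - u| ∧
      ((∀ᶠ w in 𝓝[<] b, Gn T z w → val T z cl w = val T z cl v) ∨
        ∀ᶠ w in 𝓝[>] b, Gn T z w → val T z cl w = val T z cl v) := by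
  have hne : v ≠ u := by
    rintro rfl
    exact C.not_brk hF hv hu
  rcases lt_or_gt_of_ne hne with h1 | h1
  · set E : Set ℝ := {x | Brk T z cl x} ∩ Icc v u with hE
    have hEc : IsClosed E := brk_closed.inter isClosed_Icc
    have hEne : E.Nonempty := ⟨u, hu, h1.le, le_rfl⟩
    have hEb : BddBelow E := ⟨v, fun x hx => hx.2.1⟩
    have hb : sInf E ∈ E := hEc.csInf_mem hEne hEb
    have hvb : v < sInf E := by
      refine lt_of_le_of_ne hb.2.1 fun h2 => ?_
      exact C.not_brk hF hv (h2 ▸ hb.1)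
    refine ⟨sInf E, hb.1, ?_, Or.inl ?_⟩
    · rw [abs_of_nonpos (sub_nonpos.2 hb.2.2), abs_of_nonpos (sub_nonpos.2 h1.le)]
      linarith
    · have h3 : ∀ x ∈ Ico v (sInf E), ¬ Brk T z cl x := by
        intro x hx hx2
        exact absurd (csInf_le hEb (show x ∈ E from ⟨hx2, hx.1, hx.2.le.trans hb.2.2⟩))
          (not_le.2 hx.2)
      filter_upwards [Ioo_mem_nhdsLT hvb] with w hw hw2
      exact C.six.val_Ico isPreconnected_Ico h3 ⟨hw.1.le, hw.2⟩ ⟨le_rfl, hvb⟩ hw2 hv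
  · set E : Set ℝ := {x | Brk T z cl x} ∩ Icc u v with hE
    have hEc : IsClosed E := brk_closed.inter isClosed_Icc
    have hEne : E.Nonempty := ⟨u, hu, le_rfl, h1.le⟩
    have hEb : BddAbove E := ⟨v, fun x hx => hx.2.2⟩
    have hb : sSup E ∈ E := hEc.csSup_mem hEne hEb
    have hvb : sSup E < v := by
      refine lt_of_le_of_ne hb.2.2 fun h2 => ?_
      exact C.not_brk hF hv (h2 ▸ hb.1)
    refine ⟨sSup E, hb.1, ?_, Or.inr ?_⟩
    · rw [abs_of_nonneg (sub_nonneg.2 hb.2.1), abs_of_nonneg (sub_nonneg.2 h1.le)]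
      linarith
    · have h3 : ∀ x ∈ Ioc (sSup E) v, ¬ Brk T z cl x := by
        intro x hx hx2
        exact absurd (le_csSup hEb (show x ∈ E from ⟨hx2, hb.2.1.trans hx.1.le, hx.2⟩))
          (not_le.2 hx.1)
      filter_upwards [Ioo_mem_nhdsGT hvb] with w hw hw2
      exact C.six.val_Ico isPreconnected_Ioc h3 ⟨hw.1, hw.2.le⟩ ⟨hvb, le_rfl⟩ hw2 hv

/-- a label which occurs is the label of a selection which occurs -/
theorem Sl.occ_sel (C : Sl U T z x i) (hF : F1 x i cl) {u : ℝ} {c : ℕ} (hc : Occ T z cl u c) :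
    ∃ h, cl h = c ∧ Lg x i (PP T z x u) h ∧ ∃ᶠ v in 𝓝 u, Gn T z v ∧ Sel T z v h := by
  have h1 : ∃ᶠ v in 𝓝 u, ∃ h : Fin 6 → Set (Fin 6), cl h = c ∧ Lg x i (PP T z x u) h ∧
      Gn T z v ∧ Sel T z v h := by
    refine (hc.and_eventually (C.near u)).mono fun v hv => ?_
    obtain ⟨⟨hv1, hv2⟩, hv3⟩ := hv
    obtain ⟨a, ha⟩ := C.six.exists_sel v
    exact ⟨a, by rw [← C.val_eq hF hv1 ha, hv2], C.lg hv1 ha hv3, hv1, ha⟩
  by_contra hcon
  push Not at hcon
  have h2 : ∀ h : Fin 6 → Set (Fin 6), ∀ᶠ v in 𝓝 u,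
      ¬ (cl h = c ∧ Lg x i (PP T z x u) h ∧ Gn T z v ∧ Sel T z v h) := by
    intro h
    by_cases h3 : cl h = c ∧ Lg x i (PP T z x u) h
    · exact (hcon h h3.1 h3.2).mono fun v hv hv2 => hv hv2.2.2.1 hv2.2.2.2
    · exact Eventually.of_forall fun v hv => h3 ⟨hv.1, hv.2.1⟩
  obtain ⟨v, ⟨h, hv1⟩, hv2⟩ := (h1.and_eventually (eventually_all.2 h2)).exists
  exact hv2 h hv1

/-- one label alone on one side of times with the same palettes -/
def Ctrl (T : ℂ → Set (Fin 6)) (z : ℂ) (cl : (Fin 6 → Set (Fin 6)) → ℕ) (u : ℝ) (c : ℕ) : Prop :=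
  ∀ ε > 0, ∃ b, |b - u| < ε ∧
    (∀ k : Fin 6, T (pt z (b + (k.val : ℝ))) = T (pt z (u + (k.val : ℝ)))) ∧
    ((∀ᶠ w in 𝓝[<] b, Gn T z w → ∀ a, Sel T z w a → cl a = c) ∨
      ∀ᶠ w in 𝓝[>] b, Gn T z w → ∀ a, Sel T z w a → cl a = c)

/-- **The six-fold box.** -/
theorem Sl.exists_box (C : Sl U T z x i) (hF : F1 x i cl) (hR : Rt x i cl) :
    ∃ u : ℝ, (∀ k : Fin 6, (T (pt z (u + (k.val : ℝ)))).ncard = 3 ∧
        x ∉ T (pt z (u + (k.val : ℝ)))) ∧
      Bx x (fun k => T (pt z (u + (k.val : ℝ)))) ∧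
      ∃ h g, cl h ≠ cl g ∧ Lg x i (fun k => T (pt z (u + (k.val : ℝ)))) h ∧
        Lg x i (fun k => T (pt z (u + (k.val : ℝ)))) g ∧
        (∃ᶠ v in 𝓝 u, Gn T z v ∧ Sel T z v h) ∧ (∃ᶠ v in 𝓝 u, Gn T z v ∧ Sel T z v g) ∧
        Ctrl T z cl u (cl h) ∧ Ctrl T z cl u (cl g) := by
  obtain ⟨u0, hu0⟩ := C.exists_break hF hR
  have hthree := fun (b : ℝ) (hb : Brk T z cl b) (k : Fin 6) => C.brk_three hF hb k
  have hu := hu0
  have hpp : PP T z x u0 = fun k => T (pt z (u0 + (k.val : ℝ))) := by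
    funext k; exact (hthree u0 hu k).2.2
  have hbox : ∀ᶠ b in 𝓝 u0, Brk T z cl b → ∀ k : Fin 6, T (pt z (b + (k.val : ℝ))) =
        T (pt z (u0 + (k.val : ℝ))) := by
    filter_upwards [C.near u0] with b hb hb2 k
    exact Set.eq_of_subset_of_ncard_le (hb k)
      (by rw [(hthree b hb2 k).1, (hthree u0 hu k).1]) (Set.toFinite _)
  obtain ⟨δ, hδ, hδ2⟩ := Metric.eventually_nhds_iff.1 hbox
  have hctrl : ∀ c, Occ T z cl u0 c → Ctrl T z cl u0 c := by
    intro c hc ε hε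
    obtain ⟨v, ⟨hv1, hv2⟩, hv3⟩ := (hc.and_eventually (ball_mem_nhds u0 (lt_min hε hδ))).exists
    have hv3 : |v - u0| < min ε δ := by rw [← Real.dist_eq]; exact hv3
    obtain ⟨b, hb1, hb2, hb3⟩ := C.control hF hu hv1
    refine ⟨b, lt_of_le_of_lt hb2 (lt_of_lt_of_le hv3 (min_le_left _ _)), ?_, ?_⟩
    · refine hδ2 ?_ hb1
      rw [Real.dist_eq]
      exact lt_of_le_of_lt hb2 (lt_of_lt_of_le hv3 (min_le_right _ _))
    · rw [hv2] at hb3
      rcases hb3 with h | h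
      · exact Or.inl (h.mono fun w hw hg a ha => by rw [← C.val_eq hF hg ha]; exact hw hg)
      · exact Or.inr (h.mono fun w hw hg a ha => by rw [← C.val_eq hF hg ha]; exact hw hg)
  obtain ⟨c, c', hcc, h1, h2⟩ := C.six.two_occ hu
  obtain ⟨h, k1, k2, k3⟩ := C.occ_sel hF h1
  obtain ⟨g, l1, l2, l3⟩ := C.occ_sel hF h2
  refine ⟨u0, fun k => ⟨(hthree u0 hu k).1, (hthree u0 hu k).2.1⟩, ?_, h, g, ?_, ?_, ?_, k3, l3,
    ?_, ?_⟩
  · rw [← hpp]; exact C.bx u0
  · rw [k1, l1]; exact hcc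
  · rw [← hpp]; exact k2
  · rw [← hpp]; exact l2
  · rw [k1]; exact hctrl c h1
  · rw [l1]; exact hctrl c' h2

end Vale.Agent.P032.Words6.H790
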