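import Vale.Agent.P032.Words6.H790.NoSilOf
import Vale.Agent.P032.Words6.H96.MaskF

/-!
# P032: a six-coloured centre with a clean circle has no colour which is in no letter
-/

open Set Filter Topology Metric

noncomputable section

namespace Vale.Agent.P032.Words6.H790

open Vale.Agent.P032.Six

variable {U : Fin 6 → Set ℂ} {T : ℂ → Set (Fin 6)} {z : ℂ}

/-- **No colour of a six-coloured centre with a clean circle is in no letter of the circle.** -/
theorem no_silent (h : Irr U T) (hmin : Mn U T) (h6 : (T z).ncard = 6)
    (hcl : ∀ y, dist y z = 1 → (T y).ncard ≤ 3) :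
    ∀ i, ∃ q, dist q z = 1 ∧ i ∈ T q ∧ (T q).ncard = 2 :=
  no_silent_mn H96.finF h hmin h6 hcl

end Vale.Agent.P032.Words6.H790
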