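import Vale.Agent.P032.Words6.H790.Silent
import Vale.Agent.P032.S5.H843.Core7

/-!
# P032: a six-coloured centre with a clean circle has no colour which is in no letter (over `FinF`)
-/

open Set Filter Topology Metric

noncomputable section

namespace Vale.Agent.P032.Words6.H790

open Vale.Agent.P032.Six

variable {U : Fin 6 → Set ℂ} {T : ℂ → Set (Fin 6)} {z : ℂ}

theorem no_silent_mn (hF : FinF) (h : Irr U T) (hmin : Mn U T) (h6 : (T z).ncard = 6)
    (hcl : ∀ y, dist y z = 1 → (T y).ncard ≤ 3) :
    ∀ i, ∃ q, dist q z = 1 ∧ i ∈ T q ∧ (T q).ncard = 2 := by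
  have hz : T z = univ := by
    refine Set.eq_of_subset_of_ncard_le (subset_univ _) ?_ (Set.toFinite _)
    rw [Set.ncard_univ, Nat.card_eq_fintype_card, Fintype.card_fin, h6]
  exact fun i => no_silent_of hF h hmin (fun j => by rw [hz]; exact mem_univ j) hcl i

end Vale.Agent.P032.Words6.H790
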