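import Vale.Agent.P032.Words6.H790.FinF
import Vale.Agent.P032.Words6.H529.Alt
import Vale.Agent.P032.Words6.H180.BlockPt
import Vale.Agent.P032.S5.H555.SilP
import Vale.Agent.P032.S5.H555.Cut

/-!
# P032: a six-coloured centre with a clean circle has no colour which is in no letter

Composition of the label engine (`Sl.exists_box`), rule (N) (`SilP.exists_NF`), the alternating box
(`H529.alt`), the cut (`Irr.no_cut`) and the blocked lines (`Irr.block_ptc`) over the finite facts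
`FinF`.
-/

open Set Filter Topology Metric

noncomputable section

namespace Vale.Agent.P032.Words6.H790

open Vale.Agent.P032.Six Vale.Agent.P032.S5.H767 Vale.Agent.P032.Words6.H704

variable {U : Fin 6 → Set ℂ} {T : ℂ → Set (Fin 6)} {z : ℂ} {x i : Fin 6}

theorem pt_fin_inj {z : ℂ} {u : ℝ} {a b : Fin 6}
    (h : pt z (u + (a.val : ℝ)) = pt z (u + (b.val : ℝ))) : a = b := by
  have h1 : cis ((u + (a.val : ℝ)) * (Real.pi / 3)) = cis ((u + (b.val : ℝ)) * (Real.pi / 3)) := by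
    unfold pt at h; exact add_left_cancel h
  unfold cis at h1
  obtain ⟨n, hn⟩ := Complex.exp_eq_exp_iff_exists_int.1 h1
  have h2 : (u + (a.val : ℝ)) * (Real.pi / 3) = (u + (b.val : ℝ)) * (Real.pi / 3) +
      n * (2 * Real.pi) := by
    have h3 := congrArg Complex.im hn
    simpa using h3
  have hpi := Real.pi_pos
  have h3 : ((a.val : ℤ) : ℝ) = ((b.val + 6 * n : ℤ) : ℝ) := by
    have h4 : ((a.val : ℝ) - b.val - 6 * n) * (Real.pi / 3) = 0 := by linear_combination h2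
    rcases mul_eq_zero.1 h4 with h5 | h5
    · push_cast
      linarith
    · exfalso
      have : (0 : ℝ) < Real.pi / 3 := by positivity
      linarith
  have h4 : (a.val : ℤ) = b.val + 6 * n := by exact_mod_cast h3
  have ha := a.isLt
  have hb := b.isLt
  exact Fin.ext (by omega)

theorem shift3 (v : ℝ) (k : Fin 6) : ∃ m : ℝ, (m = 0 ∨ m = 6) ∧
    v + (k.val : ℝ) + 3 = v + ((k + 3).val : ℝ) + m := by
  fin_cases k
  · exact ⟨0, Or.inl rfl, by show v + ((0 : ℕ) : ℝ) + 3 = v + ((3 : ℕ) : ℝ) + 0; push_cast; ring⟩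
  · exact ⟨0, Or.inl rfl, by show v + ((1 : ℕ) : ℝ) + 3 = v + ((4 : ℕ) : ℝ) + 0; push_cast; ring⟩
  · exact ⟨0, Or.inl rfl, by show v + ((2 : ℕ) : ℝ) + 3 = v + ((5 : ℕ) : ℝ) + 0; push_cast; ring⟩
  · exact ⟨6, Or.inr rfl, by show v + ((3 : ℕ) : ℝ) + 3 = v + ((0 : ℕ) : ℝ) + 6; push_cast; ring⟩
  · exact ⟨6, Or.inr rfl, by show v + ((4 : ℕ) : ℝ) + 3 = v + ((1 : ℕ) : ℝ) + 6; push_cast; ring⟩
  · exact ⟨6, Or.inr rfl, by show v + ((5 : ℕ) : ℝ) + 3 = v + ((2 : ℕ) : ℝ) + 6; push_cast; ring⟩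

theorem pt3_fin (z : ℂ) (v : ℝ) (k : Fin 6) :
    pt z (v + (k.val : ℝ) + 3) = pt z (v + ((k + 3).val : ℝ)) := by
  obtain ⟨m, hm, e⟩ := shift3 v k
  rw [e]
  rcases hm with rfl | rfl
  · rw [add_zero]
  · rw [pt_six]

/-- a colour of every legal selection persists -/
theorem Sl.persist (S : Sl U T z x i) {u : ℝ} {k : Fin 6} {r : Fin 6}
    (hw : ∀ w, Lg x i (PP T z x u) w → r ∈ w k) :
    ∀ᶠ v in 𝓝 u, r ∈ T (pt z (v + (k.val : ℝ))) := by
  have hcl : IsClosed {v : ℝ | r ∈ T (pt z (v + (k.val : ℝ)))} :=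
    (S.six.irr.closed r).preimage ((continuous_pt z).comp (by fun_prop))
  have h1 := eventually_eventually_nhds.2 (S.near u)
  filter_upwards [h1] with v hv
  have h2 : v ∈ closure {v : ℝ | r ∈ T (pt z (v + (k.val : ℝ)))} := by
    rw [mem_closure_iff_frequently]
    refine ((mem_closure_iff_frequently.1 (S.six.gn_dense v)).and_eventually hv).mono ?_
    rintro w ⟨hg, hs⟩
    have hg : Gn T z w := hg
    obtain ⟨a, ha⟩ := S.six.exists_sel w
    exact (ha k).2 (hw a (S.lg hg ha hs))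
  exact hcl.closure_subset h2

/-- the shift of a time -/
theorem ev_shift {u m : ℝ} {Q : ℝ → Prop} (h : ∀ᶠ v in 𝓝 u, Q (v + m)) : ∀ᶠ v in 𝓝 (u + m), Q v := by
  have hc : Tendsto (fun w : ℝ => w - m) (𝓝 (u + m)) (𝓝 u) := by
    have h5 : Continuous fun w : ℝ => w - m := by fun_prop
    have h6 := h5.tendsto (u + m)
    rwa [add_sub_cancel_right] at h6
  filter_upwards [hc.eventually h] with w hw
  rwa [sub_add_cancel] at hw

theorem fr_shift {u m : ℝ} {Q : ℝ → Prop} (h : ∃ᶠ v in 𝓝 u, Q (v + m)) :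
    ∃ᶠ v in 𝓝 (u + m), Q v := by
  intro hcon
  refine h ?_
  have hc : Tendsto (fun w : ℝ => w + m) (𝓝 u) (𝓝 (u + m)) := by
    have h5 : Continuous fun w : ℝ => w + m := by fun_prop
    exact h5.tendsto u
  exact hc.eventually hcon

/-- a blocked line off the partner -/
theorem Sl.kill (S : Sl U T z x i) {p : ℂ} (hp : dist p z = 1) (hxp : x ∈ Pal U p) {u : ℝ}
    (hx : ∀ k : Fin 6, x ∉ T (pt z (u + (k.val : ℝ)))) {h g : Fin 6 → Set (Fin 6)}
    (fh : ∃ᶠ v in 𝓝 u, Gn T z v ∧ Sel T z v h) (fg : ∃ᶠ v in 𝓝 u, Gn T z v ∧ Sel T z v g)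
    {k : Fin 6} (hb : BL x i (fun k => T (pt z (u + (k.val : ℝ)))) h g k)
    (hp1 : p ≠ pt z (u + (k.val : ℝ))) (hp2 : p ≠ pt z (u + ((k + 3).val : ℝ))) : False := by
  obtain ⟨r, s, c, d, hK, t1, t4, h1, h4, g1, g4, hlet, hw⟩ := hb
  have hpp : PP T z x u = fun k => T (pt z (u + (k.val : ℝ))) := by
    funext k; exact Set.sdiff_singleton_eq_self (hx k)
  rw [← hpp] at hw
  have hr := S.persist (k := k) (r := r) fun w h0 => (hw w h0).1
  have hs := S.persist (k := k + 3) (r := s) fun w h0 => (hw w h0).2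
  -- the letter
  obtain ⟨q0, hq0, hT0⟩ : ∃ q0, dist q0 z = 1 ∧ T q0 = {c, d} := by
    obtain ⟨v, -, sh⟩ := fh.exists
    obtain ⟨w, -, sg⟩ := fg.exists
    obtain ⟨j, hj | hj⟩ := hlet
    · obtain ⟨a, b, ⟨-, q, hq, hTq⟩, hab⟩ := (sh j).1
      exact ⟨q, hq, by rw [hTq, ← hab, hj]⟩
    · obtain ⟨a, b, ⟨-, q, hq, hTq⟩, hab⟩ := (sg j).1
      exact ⟨q, hq, by rw [hTq, ← hab, hj]⟩
  have hcd : ∀ᶠ w in 𝓝 z, c ∈ T w → d ∈ T w → 4 ≤ (T w).ncard := by
    filter_upwards [S.six.irr.no_layer hq0] with w hw hc hd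
    refine hw ?_
    rw [hT0]
    rintro j (rfl | rfl)
    · exact hc
    · exact hd
  -- the carried pairs
  have carry : ∀ a : Fin 6 → Set (Fin 6), (∃ᶠ v in 𝓝 u, Gn T z v ∧ Sel T z v a) →
      ∃ᶠ v in 𝓝 (u + (k.val : ℝ)), (∀ᶠ v' in 𝓝 v, a k ⊆ T (pt z v')) ∧
        ∀ᶠ v' in 𝓝 v, a (k + 3) ⊆ T (pt z (v' + 3)) := by
    intro a fa
    refine fr_shift (fa.mono fun v hv => ?_)
    obtain ⟨hg, hs⟩ := hv
    have e1 : ∀ᶠ w in 𝓝 v, ∀ j : Fin 6, a j ⊆ T (pt z (w + (j.val : ℝ))) := by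
      rw [eventually_all]
      intro j
      have hc : Tendsto (fun w : ℝ => w + (j.val : ℝ)) (𝓝 v) (𝓝 (v + (j.val : ℝ))) := by
        have h5 : Continuous fun w : ℝ => w + (j.val : ℝ) := by fun_prop
        exact h5.tendsto v
      filter_upwards [hc.eventually (hg j)] with w hw
      rw [hw]
      exact (hs j).2
    constructor
    · exact ev_shift (Q := fun v' => a k ⊆ T (pt z v')) (e1.mono fun w hw => hw k)
    · exact ev_shift (Q := fun v' => a (k + 3) ⊆ T (pt z (v' + 3))) (e1.mono fun w hw => by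
        rw [pt3_fin]; exact hw (k + 3))
  refine S.six.irr.block_ptc (z := z) (p := p) (v0 := u + (k.val : ℝ)) (x := x) (o := i) (r := r)
    (s := s) (c := c) (d := d) (fun j => S.six.irr.sub z (S.six.all j)) hp hxp hp1 ?_ ?_ t1 ?_
    ?_ ?_ hcd ?_ ?_
  · rw [pt3_fin]; exact hp2
  · intro j; exact hK j
  · rw [pt3_fin]; exact t4
  · exact ev_shift (Q := fun v => r ∈ T (pt z v)) hr
  · exact ev_shift (Q := fun v => s ∈ T (pt z (v + 3))) (hs.mono fun w hw => by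
      rw [pt3_fin]; exact hw)
  · have := carry h fh
    rw [h1, h4] at this
    exact this
  · have := carry g fg
    rw [g1, g4] at this
    exact this

/-- **No colour is in no letter.** -/
theorem no_silent_of (hF : FinF) (h : Irr U T)
    (hmin : ∀ z, 4 ≤ (T z).ncard → ∀ s, s ⊆ T z → s ≠ T z →
      ¬ ∀ᶠ w in 𝓝 z, ∃ i ∈ s, w ∈ U i ∨ (w ∈ XX U ∧ i ∈ Pal U w))
    (hall : ∀ i, i ∈ T z) (hclean : ∀ y, dist y z = 1 → (T y).ncard ≤ 3) (x : Fin 6) :
    ∃ q, dist q z = 1 ∧ x ∈ T q ∧ (T q).ncard = 2 := by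
  by_contra hcon
  push Not at hcon
  have C : Six6 U T z := ⟨h, hall, hclean⟩
  have hmute : ∀ a b, MC T z a b → a ≠ x ∧ b ≠ x := by
    rintro a b ⟨hab, q, hq, hTq⟩
    constructor
    · rintro rfl
      exact hcon q hq (by rw [hTq]; exact Or.inl rfl) (by rw [hTq]; exact Set.ncard_pair hab)
    · rintro rfl
      exact hcon q hq (by rw [hTq]; exact Or.inr rfl) (by rw [hTq]; exact Set.ncard_pair hab)
  obtain ⟨p, hp, hxp, i, hi, hN⟩ := SilP.exists_NF C x
  have S : Sl U T z x i := ⟨C, hmute, hN⟩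
  obtain ⟨f1, rt, f2⟩ := hF x i hi
  obtain ⟨u, h3, hb, h', g', hne, lh, lg, fh, fg, -, -⟩ := S.exists_box f1 rt
  rcases f2 _ h' g' hb (fun k => (h3 k).1) lh lg hne with
    ⟨A, B, hA, hB, hxA, hxB, hAB, ht⟩ | ⟨A, B, hAne, hBne, hA2, hAB, hxA, hxB, hcov, hlet⟩ |
      ⟨k, k', hk1, hk3, b1, b2⟩
  · exact H529.alt C hp hxp hxA hxB hN hA hB hAB ht
  · refine h.no_cut hmin (z := z) (x := x) (A := A) (B := B) ?_ ?_ hxA hxB hAB hAne hBne hA2 ?_
    · rw [H46.ncard_six C]; omega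
    · ext j
      constructor
      · intro _
        rcases hcov j with h0 | h0 | h0
        · exact Or.inl h0
        · exact Or.inr (Or.inl h0)
        · exact Or.inr (Or.inr h0)
      · intro _; exact hall j
    · intro a ha b hb
      obtain ⟨v, -, sh⟩ := fh.exists
      obtain ⟨w, -, sg⟩ := fg.exists
      obtain ⟨k, hk | hk⟩ := hlet a ha b hb
      · obtain ⟨a', b', ⟨-, q, hq, hTq⟩, hab⟩ := (sh k).1
        exact ⟨q, hq, by rw [hTq, ← hab, hk]⟩
      · obtain ⟨a', b', ⟨-, q, hq, hTq⟩, hab⟩ := (sg k).1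
        exact ⟨q, hq, by rw [hTq, ← hab, hk]⟩
  · have hkill : ∀ k : Fin 6, (BL x i (fun k => T (pt z (u + (k.val : ℝ)))) h' g' k ∨
        BL x i (fun k => T (pt z (u + (k.val : ℝ)))) g' h' k) →
        p = pt z (u + (k.val : ℝ)) ∨ p = pt z (u + ((k + 3).val : ℝ)) := by
      intro k hk
      by_contra hno
      push Not at hno
      rcases hk with hk | hk
      · exact S.kill hp hxp (fun k => (h3 k).2) fh fg hk hno.1 hno.2
      · exact S.kill hp hxp (fun k => (h3 k).2) fg fh hk hno.1 hno.2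
    have e6 : k + 3 + 3 = k := by
      fin_cases k <;> rfl
    rcases hkill k b1 with h1 | h1 <;> rcases hkill k' b2 with h2 | h2
    · exact hk1 (pt_fin_inj (h2.symm.trans h1))
    · have h4 := pt_fin_inj (h2.symm.trans h1)
      refine hk3 ?_
      rw [← h4]
      fin_cases k' <;> rfl
    · exact hk3 (pt_fin_inj (h2.symm.trans h1))
    · have h4 := pt_fin_inj (h2.symm.trans h1)
      exact hk1 (add_right_cancel h4)

end Vale.Agent.P032.Words6.H790
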